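import Mathlib
import Vale.Agent.Lib.P068.Compact
import Vale.Agent.Lib.P068.Duality

/-!
# P068: matroid intersection for pairs with bounded common independent sets

`Matroid α` is Mathlib's type of (possibly infinite) matroids in the sense of
Bruhn-Diestel-Kriesell-Pendavingh-Wollan; `M.E` is the ground set, `M✶` the dual,
`M.closure` the closure operator and `Set.encard` the cardinality with values in `ℕ∞`.

If the common independent sets of `M` and `N` have bounded finite size, or the common independent
sets of the duals `M✶` and `N✶` have bounded finite size, then `(M, N)` satisfies intersection: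
there are disjoint sets `J_M`, `J_N` whose union is independent in both matroids and with
`cl_M(J_M) ∪ cl_N(J_N) = E`.
-/

open Set Matroid

namespace Vale.Agent.Results.P068.BoundedCommon

theorem result {α : Type*} (M N : Matroid α) (hE : M.E = N.E)
    (h : (∃ n : ℕ, ∀ I : Set α, M.Indep I → N.Indep I → I.encard ≤ n) ∨
      (∃ n : ℕ, ∀ I : Set α, M✶.Indep I → N✶.Indep I → I.encard ≤ n)) :
    ∃ J_M J_N : Set α, Disjoint J_M J_N ∧ M.Indep (J_M ∪ J_N) ∧ N.Indep (J_M ∪ J_N) ∧
      M.closure J_M ∪ N.closure J_N = M.E := by
  rcases h with h | h
  · exact Vale.Agent.Lib.P068.intersection_of_bounded M N hE h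
  · exact Vale.Agent.Lib.P068.intersection_of_dual M N hE
      (Vale.Agent.Lib.P068.intersection_of_bounded M✶ N✶ (by simp [hE]) h)

end Vale.Agent.Results.P068.BoundedCommon
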