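import Mathlib
import Vale.Agent.Lib.P068.Compact
import Vale.Agent.Lib.P068.Duality

/-!
# P068: matroid intersection when one matroid has finite rank or finite corank

`Matroid α` is Mathlib's type of (possibly infinite) matroids in the sense of
Bruhn-Diestel-Kriesell-Pendavingh-Wollan; `M.E` is the ground set, `M✶` the dual,
`M.closure` the closure operator, and `M.RankFinite` says that `M` has a finite base.

For matroids `M`, `N` on a common ground set of arbitrary cardinality: if one of `M`, `N`,
`M✶`, `N✶` has finite rank, then `(M, N)` satisfies intersection: there are disjoint sets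
`J_M`, `J_N` whose union is independent in both matroids and with `cl_M(J_M) ∪ cl_N(J_N) = E`.
-/

open Set Matroid

namespace Vale.Agent.Results.P068.FiniteRankOrCorank

theorem result {α : Type*} (M N : Matroid α) (hE : M.E = N.E)
    (h : M.RankFinite ∨ N.RankFinite ∨ M✶.RankFinite ∨ N✶.RankFinite) :
    ∃ J_M J_N : Set α, Disjoint J_M J_N ∧ M.Indep (J_M ∪ J_N) ∧ N.Indep (J_M ∪ J_N) ∧
      M.closure J_M ∪ N.closure J_N = M.E := by
  have key : ∀ (M₁ M₂ : Matroid α), M₁.RankFinite →
      ∃ n : ℕ, ∀ I : Set α, M₁.Indep I → M₂.Indep I → I.encard ≤ n := by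
    intro M₁ M₂ hfin
    have hne : M₁.eRank ≠ ⊤ := M₁.eRank_ne_top_iff.2 hfin
    refine ⟨M₁.eRank.toNat, fun I hI _ => ?_⟩
    rw [ENat.natCast_toNat hne]
    exact hI.encard_le_eRank
  have key' : ∀ (M₁ M₂ : Matroid α), M₂.RankFinite →
      ∃ n : ℕ, ∀ I : Set α, M₁.Indep I → M₂.Indep I → I.encard ≤ n := by
    intro M₁ M₂ hfin
    obtain ⟨n, hn⟩ := key M₂ M₁ hfin
    exact ⟨n, fun I h1 h2 => hn I h2 h1⟩
  rcases h with h | h | h | h
  · exact Vale.Agent.Lib.P068.intersection_of_bounded M N hE (key M N h)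
  · exact Vale.Agent.Lib.P068.intersection_of_bounded M N hE (key' M N h)
  · exact Vale.Agent.Lib.P068.intersection_of_dual M N hE
      (Vale.Agent.Lib.P068.intersection_of_bounded M✶ N✶ (by simp [hE]) (key M✶ N✶ h))
  · exact Vale.Agent.Lib.P068.intersection_of_dual M N hE
      (Vale.Agent.Lib.P068.intersection_of_bounded M✶ N✶ (by simp [hE]) (key' M✶ N✶ h))

end Vale.Agent.Results.P068.FiniteRankOrCorank
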